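import Vale.Agent.P202.CharP

open IsLocalRing

/-- Lech's conjecture for rings of prime characteristic. -/
theorem Vale.Agent.Results.P202.LechCharP.result.{u, v} (p : ℕ) (hp : p.Prime)
    (R : Type u) (S : Type v) [CommRing R] [IsLocalRing R] [IsNoetherianRing R]
    [CommRing S] [IsLocalRing S] [IsNoetherianRing S] [CharP R p]
    (φ : R →+* S) (hloc : IsLocalHom φ) (hflat : φ.Flat) :
    ∃ eR eS : ℝ, Vale.Agent.P202.IsMultiplicity R eR ∧ Vale.Agent.P202.IsMultiplicity S eS ∧
      eR ≤ eS := by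
  haveI : Fact p.Prime := ⟨hp⟩
  exact Vale.Agent.P202.lech_charP p φ hflat
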