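import Vale.Agent.P202.Lift

open IsLocalRing

/-- Lech's conjecture for rings containing a field. -/
theorem Vale.Agent.Results.P202.LechEqChar.result.{u, v, w} (K : Type w) [Field K]
    (R : Type u) (S : Type v) [CommRing R] [IsLocalRing R] [IsNoetherianRing R]
    [CommRing S] [IsLocalRing S] [IsNoetherianRing S] (ι : K →+* R)
    (φ : R →+* S) (hloc : IsLocalHom φ) (hflat : φ.Flat) :
    ∃ eR eS : ℝ, Vale.Agent.P202.IsMultiplicity R eR ∧ Vale.Agent.P202.IsMultiplicity S eS ∧
      eR ≤ eS :=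
  Vale.Agent.P202.lech_eqChar (Vale.Agent.P202.eqChar_of_field K R ι) φ hflat
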