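import Vale.Agent.P202.Final

open IsLocalRing

/-- Lech's conjecture. -/
theorem Vale.Agent.Results.P202.LechFull.result.{u, v}
    (R : Type u) (S : Type v) [CommRing R] [IsLocalRing R] [IsNoetherianRing R]
    [CommRing S] [IsLocalRing S] [IsNoetherianRing S]
    (φ : R →+* S) (hloc : IsLocalHom φ) (hflat : φ.Flat) :
    ∃ eR eS : ℝ, Vale.Agent.P202.IsMultiplicity R eR ∧ Vale.Agent.P202.IsMultiplicity S eS ∧
      eR ≤ eS :=
  Vale.Agent.P202.lech φ hflat
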